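import Vale.Agent.P333.H476.K6.Str

set_option autoImplicit false

/-!
P333: the family is reduced, its superstring, the end of the run.
-/

namespace Vale.Agent.P333.H476.K6

open Vale.Agent.P333.H476.Nm

theorem okFam : okAll fam = true := by decide +kernel

theorem ndFam : ndp fam = true := by decide +kernel

theorem freeFam : freeN fam = true := by decide +kernel

theorem reduced : Greedy.Reduced (fam.map str) (fam.map str) := reduced_of okFam ndFam freeFam

theorem opt_le : opt (fam.map str) ≤ 8264 :=
  opt_le_of (q := sup) (by decide +kernel) (by decide +kernel)

theorem all29 : All
    [m28, m27, m26, m25, m24, m22, m3, m1] 17415 :=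
  all_end (by decide +kernel) (by decide +kernel)

end Vale.Agent.P333.H476.K6
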