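import Vale.Agent.P333.H476.K6.Str

set_option autoImplicit false

/-!
P333: checks of steps of the greedy algorithm.
-/

namespace Vale.Agent.P333.H476.K6

open Vale.Agent.P333.H476.Nm

theorem ok3 : stepOk s20 s21 868
    [m2, m1, s0, s1, s2, s3, s4, s5, s6, s7, s8, s9, s10, s11, s12, s13, s14, s15, s16, s17, s18, s19, s24, s25, s26, s27, s28, s29, s30, s31, s32, s33] = true := by
  decide +kernel

theorem e3 : mrg s20 s21 868 = m3 := by
  decide +kernel

theorem ok22 : stepOk m20 m18 738
    [m21, m19, m17, m15, m13, m11, m9, m7, m5, m3, m1, s2, s3] = true := by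
  decide +kernel

theorem e22 : mrg m20 m18 738 = m22 := by
  decide +kernel

theorem ok25 : stepOk m11 m9 193
    [m24, m23, m22, m21, m19, m17, m15, m13, m3, m1] = true := by
  decide +kernel

theorem e25 : mrg m11 m9 193 = m25 := by
  decide +kernel

end Vale.Agent.P333.H476.K6
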