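import Vale.Agent.P333.H476.K6.Str

set_option autoImplicit false

/-!
P333: checks of steps of the greedy algorithm.
-/

namespace Vale.Agent.P333.H476.K6

open Vale.Agent.P333.H476.Nm

theorem ok14 : stepOk m12 m10 792
    [m13, m11, m9, m7, m5, m3, m1, s0, s1, s2, s3, s4, s5, s6, s7, s10, s11, s24, s25, s26, s27] = true := by
  decide +kernel

theorem e14 : mrg m12 m10 792 = m14 := by
  decide +kernel

theorem ok15 : stepOk s10 s11 790
    [m14, m13, m11, m9, m7, m5, m3, m1, s0, s1, s2, s3, s4, s5, s6, s7, s24, s25, s26, s27] = true := by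
  decide +kernel

theorem e15 : mrg s10 s11 790 = m15 := by
  decide +kernel

theorem ok26 : stepOk m15 m13 187
    [m25, m24, m23, m22, m21, m19, m17, m3, m1] = true := by
  decide +kernel

theorem e26 : mrg m15 m13 187 = m26 := by
  decide +kernel

end Vale.Agent.P333.H476.K6
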