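import Vale.Agent.P333.H476.K6.Str

set_option autoImplicit false

/-!
P333: checks of steps of the greedy algorithm.
-/

namespace Vale.Agent.P333.H476.K6

open Vale.Agent.P333.H476.Nm

theorem ok7 : stepOk s18 s19 838
    [m6, m5, m3, m1, s0, s1, s2, s3, s4, s5, s6, s7, s8, s9, s10, s11, s12, s13, s14, s15, s24, s25, s26, s27, s28, s29, s30, s31] = true := by
  decide +kernel

theorem e7 : mrg s18 s19 838 = m7 := by
  decide +kernel

theorem ok16 : stepOk s26 s27 774
    [m15, m14, m13, m11, m9, m7, m5, m3, m1, s0, s1, s2, s3, s4, s5, s6, s7, s24, s25] = true := by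
  decide +kernel

theorem e16 : mrg s26 s27 774 = m16 := by
  decide +kernel

theorem ok27 : stepOk m19 m17 181
    [m26, m25, m24, m23, m22, m21, m3, m1] = true := by
  decide +kernel

theorem e27 : mrg m19 m17 181 = m27 := by
  decide +kernel

end Vale.Agent.P333.H476.K6
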