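import Vale.Agent.P333.H476.K6.Str

set_option autoImplicit false

/-!
P333: checks of steps of the greedy algorithm.
-/

namespace Vale.Agent.P333.H476.K6

open Vale.Agent.P333.H476.Nm

theorem ok8 : stepOk s30 s31 822
    [m7, m6, m5, m3, m1, s0, s1, s2, s3, s4, s5, s6, s7, s8, s9, s10, s11, s12, s13, s14, s15, s24, s25, s26, s27, s28, s29] = true := by
  decide +kernel

theorem e8 : mrg s30 s31 822 = m8 := by
  decide +kernel

theorem ok17 : stepOk s4 s5 772
    [m16, m15, m14, m13, m11, m9, m7, m5, m3, m1, s0, s1, s2, s3, s6, s7, s24, s25] = true := by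
  decide +kernel

theorem e17 : mrg s4 s5 772 = m17 := by
  decide +kernel

theorem ok19 : stepOk s6 s7 766
    [m18, m17, m15, m13, m11, m9, m7, m5, m3, m1, s0, s1, s2, s3, s24, s25] = true := by
  decide +kernel

theorem e19 : mrg s6 s7 766 = m19 := by
  decide +kernel

theorem ok28 : stepOk m23 m21 176
    [m27, m26, m25, m24, m22, m3, m1] = true := by
  decide +kernel

theorem e28 : mrg m23 m21 176 = m28 := by
  decide +kernel

end Vale.Agent.P333.H476.K6
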