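import Vale.Agent.P333.H476.K6.Str

set_option autoImplicit false

/-!
P333: checks of steps of the greedy algorithm.
-/

namespace Vale.Agent.P333.H476.K6

open Vale.Agent.P333.H476.Nm

theorem ok6 : stepOk m4 m2 840
    [m5, m3, m1, s0, s1, s2, s3, s4, s5, s6, s7, s8, s9, s10, s11, s12, s13, s14, s15, s18, s19, s24, s25, s26, s27, s28, s29, s30, s31] = true := by
  decide +kernel

theorem e6 : mrg m4 m2 840 = m6 := by
  decide +kernel

theorem ok9 : stepOk s12 s13 820
    [m8, m7, m6, m5, m3, m1, s0, s1, s2, s3, s4, s5, s6, s7, s8, s9, s10, s11, s14, s15, s24, s25, s26, s27, s28, s29] = true := by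
  decide +kernel

theorem e9 : mrg s12 s13 820 = m9 := by
  decide +kernel

theorem ok11 : stepOk s14 s15 814
    [m10, m9, m7, m5, m3, m1, s0, s1, s2, s3, s4, s5, s6, s7, s8, s9, s10, s11, s24, s25, s26, s27, s28, s29] = true := by
  decide +kernel

theorem e11 : mrg s14 s15 814 = m11 := by
  decide +kernel

theorem ok20 : stepOk s24 s25 744
    [m19, m18, m17, m15, m13, m11, m9, m7, m5, m3, m1, s0, s1, s2, s3] = true := by
  decide +kernel

theorem e20 : mrg s24 s25 744 = m20 := by
  decide +kernel

end Vale.Agent.P333.H476.K6
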