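import Vale.Agent.P333.H476.K6.Str

set_option autoImplicit false

/-!
P333: checks of steps of the greedy algorithm.
-/

namespace Vale.Agent.P333.H476.K6

open Vale.Agent.P333.H476.Nm

theorem ok0 : stepOk s35 s36 1326
    [s0, s1, s2, s3, s4, s5, s6, s7, s8, s9, s10, s11, s12, s13, s14, s15, s16, s17, s18, s19, s20, s21, s22, s23, s24, s25, s26, s27, s28, s29, s30, s31, s32, s33, s34] = true := by
  decide +kernel

theorem e0 : mrg s35 s36 1326 = m0 := by
  decide +kernel

theorem ok1 : stepOk s22 s23 1324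
    [m0, s0, s1, s2, s3, s4, s5, s6, s7, s8, s9, s10, s11, s12, s13, s14, s15, s16, s17, s18, s19, s20, s21, s24, s25, s26, s27, s28, s29, s30, s31, s32, s33, s34] = true := by
  decide +kernel

theorem e1 : mrg s22 s23 1324 = m1 := by
  decide +kernel

theorem ok5 : stepOk s16 s17 844
    [m4, m3, m2, m1, s0, s1, s2, s3, s4, s5, s6, s7, s8, s9, s10, s11, s12, s13, s14, s15, s18, s19, s24, s25, s26, s27, s28, s29, s30, s31] = true := by
  decide +kernel

theorem e5 : mrg s16 s17 844 = m5 := by
  decide +kernel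

theorem ok10 : stepOk m8 m6 816
    [m9, m7, m5, m3, m1, s0, s1, s2, s3, s4, s5, s6, s7, s8, s9, s10, s11, s14, s15, s24, s25, s26, s27, s28, s29] = true := by
  decide +kernel

theorem e10 : mrg m8 m6 816 = m10 := by
  decide +kernel

theorem ok12 : stepOk s28 s29 798
    [m11, m10, m9, m7, m5, m3, m1, s0, s1, s2, s3, s4, s5, s6, s7, s8, s9, s10, s11, s24, s25, s26, s27] = true := by
  decide +kernel

theorem e12 : mrg s28 s29 798 = m12 := by
  decide +kernel

end Vale.Agent.P333.H476.K6
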