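import Vale.Agent.P333.H476.K6.Str

set_option autoImplicit false

/-!
P333: checks of steps of the greedy algorithm.
-/

namespace Vale.Agent.P333.H476.K6

open Vale.Agent.P333.H476.Nm

theorem ok2 : stepOk s34 m0 870
    [m1, s0, s1, s2, s3, s4, s5, s6, s7, s8, s9, s10, s11, s12, s13, s14, s15, s16, s17, s18, s19, s20, s21, s24, s25, s26, s27, s28, s29, s30, s31, s32, s33] = true := by
  decide +kernel

theorem e2 : mrg s34 m0 870 = m2 := by
  decide +kernel

theorem ok4 : stepOk s32 s33 846
    [m3, m2, m1, s0, s1, s2, s3, s4, s5, s6, s7, s8, s9, s10, s11, s12, s13, s14, s15, s16, s17, s18, s19, s24, s25, s26, s27, s28, s29, s30, s31] = true := by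
  decide +kernel

theorem e4 : mrg s32 s33 846 = m4 := by
  decide +kernel

theorem ok18 : stepOk m16 m14 768
    [m17, m15, m13, m11, m9, m7, m5, m3, m1, s0, s1, s2, s3, s6, s7, s24, s25] = true := by
  decide +kernel

theorem e18 : mrg m16 m14 768 = m18 := by
  decide +kernel

theorem ok21 : stepOk s0 s1 742
    [m20, m19, m18, m17, m15, m13, m11, m9, m7, m5, m3, m1, s2, s3] = true := by
  decide +kernel

theorem e21 : mrg s0 s1 742 = m21 := by
  decide +kernel

end Vale.Agent.P333.H476.K6
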