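import Vale.Agent.P333.H476.K6.St0
import Vale.Agent.P333.H476.K6.St1
import Vale.Agent.P333.H476.K6.St2
import Vale.Agent.P333.H476.K6.St3
import Vale.Agent.P333.H476.K6.St4
import Vale.Agent.P333.H476.K6.St5
import Vale.Agent.P333.H476.K6.St6
import Vale.Agent.P333.H476.K6.St7
import Vale.Agent.P333.H476.K6.Fr

set_option autoImplicit false

/-!
P333: a family for which every greedy superstring is more than twice as long as a shortest one.
-/

namespace Vale.Agent.P333.H476.K6

open Vale.Agent.P333.H476.Nm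

theorem all28 : All
    [m27, m26, m25, m24, m23, m22, m21, m3, m1]
    17415 := by
  have h : All
      (m23 :: m21 :: [m27, m26, m25, m24, m22, m3, m1])
      17415 := by
    refine all_step ok28 ?_
    rw [e28]
    exact all29
  refine h.perm ?_
  exact (List.perm_middle (l₁ := [m27, m26, m25, m24])
      (a := m23)
      (l₂ := [m22, m21, m3, m1])).trans
      ((List.perm_middle (l₁ := [m27, m26, m25, m24, m22])
      (a := m21)
      (l₂ := [m3, m1])).cons m23)

theorem all27 : All
    [m26, m25, m24, m23, m22, m21, m19, m17, m3, m1]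
    17415 := by
  have h : All
      (m19 :: m17 :: [m26, m25, m24, m23, m22, m21, m3, m1])
      17415 := by
    refine all_step ok27 ?_
    rw [e27]
    exact all28
  refine h.perm ?_
  exact (List.perm_middle (l₁ := [m26, m25, m24, m23, m22, m21])
      (a := m19)
      (l₂ := [m17, m3, m1])).trans
      ((List.perm_middle (l₁ := [m26, m25, m24, m23, m22, m21])
      (a := m17)
      (l₂ := [m3, m1])).cons m19)

theorem all26 : All
    [m25, m24, m23, m22, m21, m19, m17, m15, m13, m3, m1]
    17415 := by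
  have h : All
      (m15 :: m13 :: [m25, m24, m23, m22, m21, m19, m17, m3, m1])
      17415 := by
    refine all_step ok26 ?_
    rw [e26]
    exact all27
  refine h.perm ?_
  exact (List.perm_middle (l₁ := [m25, m24, m23, m22, m21, m19, m17])
      (a := m15)
      (l₂ := [m13, m3, m1])).trans
      ((List.perm_middle (l₁ := [m25, m24, m23, m22, m21, m19, m17])
      (a := m13)
      (l₂ := [m3, m1])).cons m15)

theorem all25 : All
    [m24, m23, m22, m21, m19, m17, m15, m13, m11, m9, m3, m1]
    17415 := by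
  have h : All
      (m11 :: m9 :: [m24, m23, m22, m21, m19, m17, m15, m13, m3, m1])
      17415 := by
    refine all_step ok25 ?_
    rw [e25]
    exact all26
  refine h.perm ?_
  exact (List.perm_middle (l₁ := [m24, m23, m22, m21, m19, m17, m15, m13])
      (a := m11)
      (l₂ := [m9, m3, m1])).trans
      ((List.perm_middle (l₁ := [m24, m23, m22, m21, m19, m17, m15, m13])
      (a := m9)
      (l₂ := [m3, m1])).cons m11)

theorem all24 : All
    [m23, m22, m21, m19, m17, m15, m13, m11, m9, m7, m5, m3, m1]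
    17415 := by
  have h : All
      (m7 :: m5 :: [m23, m22, m21, m19, m17, m15, m13, m11, m9, m3, m1])
      17415 := by
    refine all_step ok24 ?_
    rw [e24]
    exact all25
  refine h.perm ?_
  exact (List.perm_middle (l₁ := [m23, m22, m21, m19, m17, m15, m13, m11, m9])
      (a := m7)
      (l₂ := [m5, m3, m1])).trans
      ((List.perm_middle (l₁ := [m23, m22, m21, m19, m17, m15, m13, m11, m9])
      (a := m5)
      (l₂ := [m3, m1])).cons m7)

theorem all23 : All
    [m22, m21, m19, m17, m15, m13, m11, m9, m7, m5, m3, m1, s2, s3]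
    17415 := by
  have h : All
      (s2 :: s3 :: [m22, m21, m19, m17, m15, m13, m11, m9, m7, m5, m3, m1])
      17415 := by
    refine all_step ok23 ?_
    rw [e23]
    exact all24
  refine h.perm ?_
  exact (List.perm_middle (l₁ := [m22, m21, m19, m17, m15, m13, m11, m9, m7, m5, m3, m1])
      (a := s2)
      (l₂ := [s3])).trans
      ((List.perm_middle (l₁ := [m22, m21, m19, m17, m15, m13, m11, m9, m7, m5, m3, m1])
      (a := s3)
      (l₂ := [])).cons s2)

theorem all22 : All
    [m21, m20, m19, m18, m17, m15, m13, m11, m9, m7, m5, m3, m1, s2, s3]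
    17415 := by
  have h : All
      (m20 :: m18 :: [m21, m19, m17, m15, m13, m11, m9, m7, m5, m3, m1, s2, s3])
      17415 := by
    refine all_step ok22 ?_
    rw [e22]
    exact all23
  refine h.perm ?_
  exact (List.perm_middle (l₁ := [m21])
      (a := m20)
      (l₂ := [m19, m18, m17, m15, m13, m11, m9, m7, m5, m3, m1, s2, s3])).trans
      ((List.perm_middle (l₁ := [m21, m19])
      (a := m18)
      (l₂ := [m17, m15, m13, m11, m9, m7, m5, m3, m1, s2, s3])).cons m20)

theorem all21 : All
    [m20, m19, m18, m17, m15, m13, m11, m9, m7, m5, m3, m1, s0, s1, s2, s3]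
    17415 := by
  have h : All
      (s0 :: s1 :: [m20, m19, m18, m17, m15, m13, m11, m9, m7, m5, m3, m1, s2, s3])
      17415 := by
    refine all_step ok21 ?_
    rw [e21]
    exact all22
  refine h.perm ?_
  exact (List.perm_middle (l₁ := [m20, m19, m18, m17, m15, m13, m11, m9, m7, m5, m3, m1])
      (a := s0)
      (l₂ := [s1, s2, s3])).trans
      ((List.perm_middle (l₁ := [m20, m19, m18, m17, m15, m13, m11, m9, m7, m5, m3, m1])
      (a := s1)
      (l₂ := [s2, s3])).cons s0)

theorem all20 : All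
    [m19, m18, m17, m15, m13, m11, m9, m7, m5, m3, m1, s0, s1, s2, s3, s24, s25]
    17415 := by
  have h : All
      (s24 :: s25 :: [m19, m18, m17, m15, m13, m11, m9, m7, m5, m3, m1, s0, s1, s2, s3])
      17415 := by
    refine all_step ok20 ?_
    rw [e20]
    exact all21
  refine h.perm ?_
  exact (List.perm_middle (l₁ := [m19, m18, m17, m15, m13, m11, m9, m7, m5, m3, m1, s0, s1, s2, s3])
      (a := s24)
      (l₂ := [s25])).trans
      ((List.perm_middle (l₁ := [m19, m18, m17, m15, m13, m11, m9, m7, m5, m3, m1, s0, s1, s2, s3])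
      (a := s25)
      (l₂ := [])).cons s24)

theorem all19 : All
    [m18, m17, m15, m13, m11, m9, m7, m5, m3, m1, s0, s1, s2, s3, s6, s7, s24, s25]
    17415 := by
  have h : All
      (s6 :: s7 :: [m18, m17, m15, m13, m11, m9, m7, m5, m3, m1, s0, s1, s2, s3, s24, s25])
      17415 := by
    refine all_step ok19 ?_
    rw [e19]
    exact all20
  refine h.perm ?_
  exact (List.perm_middle (l₁ := [m18, m17, m15, m13, m11, m9, m7, m5, m3, m1, s0, s1, s2, s3])
      (a := s6)
      (l₂ := [s7, s24, s25])).trans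
      ((List.perm_middle (l₁ := [m18, m17, m15, m13, m11, m9, m7, m5, m3, m1, s0, s1, s2, s3])
      (a := s7)
      (l₂ := [s24, s25])).cons s6)

theorem all18 : All
    [m17, m16, m15, m14, m13, m11, m9, m7, m5, m3, m1, s0, s1, s2, s3, s6, s7, s24, s25]
    17415 := by
  have h : All
      (m16 :: m14 :: [m17, m15, m13, m11, m9, m7, m5, m3, m1, s0, s1, s2, s3, s6, s7, s24, s25])
      17415 := by
    refine all_step ok18 ?_
    rw [e18]
    exact all19
  refine h.perm ?_
  exact (List.perm_middle (l₁ := [m17])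
      (a := m16)
      (l₂ := [m15, m14, m13, m11, m9, m7, m5, m3, m1, s0, s1, s2, s3, s6, s7, s24, s25])).trans
      ((List.perm_middle (l₁ := [m17, m15])
      (a := m14)
      (l₂ := [m13, m11, m9, m7, m5, m3, m1, s0, s1, s2, s3, s6, s7, s24, s25])).cons m16)

theorem all17 : All
    [m16, m15, m14, m13, m11, m9, m7, m5, m3, m1, s0, s1, s2, s3, s4, s5, s6, s7, s24, s25]
    17415 := by
  have h : All
      (s4 :: s5 :: [m16, m15, m14, m13, m11, m9, m7, m5, m3, m1, s0, s1, s2, s3, s6, s7, s24, s25])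
      17415 := by
    refine all_step ok17 ?_
    rw [e17]
    exact all18
  refine h.perm ?_
  exact (List.perm_middle (l₁ := [m16, m15, m14, m13, m11, m9, m7, m5, m3, m1, s0, s1, s2, s3])
      (a := s4)
      (l₂ := [s5, s6, s7, s24, s25])).trans
      ((List.perm_middle (l₁ := [m16, m15, m14, m13, m11, m9, m7, m5, m3, m1, s0, s1, s2, s3])
      (a := s5)
      (l₂ := [s6, s7, s24, s25])).cons s4)

theorem all16 : All
    [m15, m14, m13, m11, m9, m7, m5, m3, m1, s0, s1, s2, s3, s4, s5, s6, s7, s24, s25, s26, s27]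
    17415 := by
  have h : All
      (s26 :: s27 :: [m15, m14, m13, m11, m9, m7, m5, m3, m1, s0, s1, s2, s3, s4, s5, s6, s7, s24, s25])
      17415 := by
    refine all_step ok16 ?_
    rw [e16]
    exact all17
  refine h.perm ?_
  exact (List.perm_middle (l₁ := [m15, m14, m13, m11, m9, m7, m5, m3, m1, s0, s1, s2, s3, s4, s5, s6, s7, s24, s25])
      (a := s26)
      (l₂ := [s27])).trans
      ((List.perm_middle (l₁ := [m15, m14, m13, m11, m9, m7, m5, m3, m1, s0, s1, s2, s3, s4, s5, s6, s7, s24, s25])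
      (a := s27)
      (l₂ := [])).cons s26)

theorem all15 : All
    [m14, m13, m11, m9, m7, m5, m3, m1, s0, s1, s2, s3, s4, s5, s6, s7, s10, s11, s24, s25, s26, s27]
    17415 := by
  have h : All
      (s10 :: s11 :: [m14, m13, m11, m9, m7, m5, m3, m1, s0, s1, s2, s3, s4, s5, s6, s7, s24, s25, s26, s27])
      17415 := by
    refine all_step ok15 ?_
    rw [e15]
    exact all16
  refine h.perm ?_
  exact (List.perm_middle (l₁ := [m14, m13, m11, m9, m7, m5, m3, m1, s0, s1, s2, s3, s4, s5, s6, s7])
      (a := s10)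
      (l₂ := [s11, s24, s25, s26, s27])).trans
      ((List.perm_middle (l₁ := [m14, m13, m11, m9, m7, m5, m3, m1, s0, s1, s2, s3, s4, s5, s6, s7])
      (a := s11)
      (l₂ := [s24, s25, s26, s27])).cons s10)

theorem all14 : All
    [m13, m12, m11, m10, m9, m7, m5, m3, m1, s0, s1, s2, s3, s4, s5, s6, s7, s10, s11, s24, s25, s26, s27]
    17415 := by
  have h : All
      (m12 :: m10 :: [m13, m11, m9, m7, m5, m3, m1, s0, s1, s2, s3, s4, s5, s6, s7, s10, s11, s24, s25, s26, s27])
      17415 := by
    refine all_step ok14 ?_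
    rw [e14]
    exact all15
  refine h.perm ?_
  exact (List.perm_middle (l₁ := [m13])
      (a := m12)
      (l₂ := [m11, m10, m9, m7, m5, m3, m1, s0, s1, s2, s3, s4, s5, s6, s7, s10, s11, s24, s25, s26, s27])).trans
      ((List.perm_middle (l₁ := [m13, m11])
      (a := m10)
      (l₂ := [m9, m7, m5, m3, m1, s0, s1, s2, s3, s4, s5, s6, s7, s10, s11, s24, s25, s26, s27])).cons m12)

theorem all13 : All
    [m12, m11, m10, m9, m7, m5, m3, m1, s0, s1, s2, s3, s4, s5, s6, s7, s8, s9, s10, s11, s24, s25, s26, s27]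
    17415 := by
  have h : All
      (s8 :: s9 :: [m12, m11, m10, m9, m7, m5, m3, m1, s0, s1, s2, s3, s4, s5, s6, s7, s10, s11, s24, s25, s26, s27])
      17415 := by
    refine all_step ok13 ?_
    rw [e13]
    exact all14
  refine h.perm ?_
  exact (List.perm_middle (l₁ := [m12, m11, m10, m9, m7, m5, m3, m1, s0, s1, s2, s3, s4, s5, s6, s7])
      (a := s8)
      (l₂ := [s9, s10, s11, s24, s25, s26, s27])).trans
      ((List.perm_middle (l₁ := [m12, m11, m10, m9, m7, m5, m3, m1, s0, s1, s2, s3, s4, s5, s6, s7])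
      (a := s9)
      (l₂ := [s10, s11, s24, s25, s26, s27])).cons s8)

theorem all12 : All
    [m11, m10, m9, m7, m5, m3, m1, s0, s1, s2, s3, s4, s5, s6, s7, s8, s9, s10, s11, s24, s25, s26, s27, s28, s29]
    17415 := by
  have h : All
      (s28 :: s29 :: [m11, m10, m9, m7, m5, m3, m1, s0, s1, s2, s3, s4, s5, s6, s7, s8, s9, s10, s11, s24, s25, s26, s27])
      17415 := by
    refine all_step ok12 ?_
    rw [e12]
    exact all13
  refine h.perm ?_
  exact (List.perm_middle (l₁ := [m11, m10, m9, m7, m5, m3, m1, s0, s1, s2, s3, s4, s5, s6, s7, s8, s9, s10, s11, s24, s25, s26, s27])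
      (a := s28)
      (l₂ := [s29])).trans
      ((List.perm_middle (l₁ := [m11, m10, m9, m7, m5, m3, m1, s0, s1, s2, s3, s4, s5, s6, s7, s8, s9, s10, s11, s24, s25, s26, s27])
      (a := s29)
      (l₂ := [])).cons s28)

theorem all11 : All
    [m10, m9, m7, m5, m3, m1, s0, s1, s2, s3, s4, s5, s6, s7, s8, s9, s10, s11, s14, s15, s24, s25, s26, s27, s28, s29]
    17415 := by
  have h : All
      (s14 :: s15 :: [m10, m9, m7, m5, m3, m1, s0, s1, s2, s3, s4, s5, s6, s7, s8, s9, s10, s11, s24, s25, s26, s27, s28, s29])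
      17415 := by
    refine all_step ok11 ?_
    rw [e11]
    exact all12
  refine h.perm ?_
  exact (List.perm_middle (l₁ := [m10, m9, m7, m5, m3, m1, s0, s1, s2, s3, s4, s5, s6, s7, s8, s9, s10, s11])
      (a := s14)
      (l₂ := [s15, s24, s25, s26, s27, s28, s29])).trans
      ((List.perm_middle (l₁ := [m10, m9, m7, m5, m3, m1, s0, s1, s2, s3, s4, s5, s6, s7, s8, s9, s10, s11])
      (a := s15)
      (l₂ := [s24, s25, s26, s27, s28, s29])).cons s14)

theorem all10 : All
    [m9, m8, m7, m6, m5, m3, m1, s0, s1, s2, s3, s4, s5, s6, s7, s8, s9, s10, s11, s14, s15, s24, s25, s26, s27, s28, s29]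
    17415 := by
  have h : All
      (m8 :: m6 :: [m9, m7, m5, m3, m1, s0, s1, s2, s3, s4, s5, s6, s7, s8, s9, s10, s11, s14, s15, s24, s25, s26, s27, s28, s29])
      17415 := by
    refine all_step ok10 ?_
    rw [e10]
    exact all11
  refine h.perm ?_
  exact (List.perm_middle (l₁ := [m9])
      (a := m8)
      (l₂ := [m7, m6, m5, m3, m1, s0, s1, s2, s3, s4, s5, s6, s7, s8, s9, s10, s11, s14, s15, s24, s25, s26, s27, s28, s29])).trans
      ((List.perm_middle (l₁ := [m9, m7])
      (a := m6)
      (l₂ := [m5, m3, m1, s0, s1, s2, s3, s4, s5, s6, s7, s8, s9, s10, s11, s14, s15, s24, s25, s26, s27, s28, s29])).cons m8)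

theorem all9 : All
    [m8, m7, m6, m5, m3, m1, s0, s1, s2, s3, s4, s5, s6, s7, s8, s9, s10, s11, s12, s13, s14, s15, s24, s25, s26, s27, s28, s29]
    17415 := by
  have h : All
      (s12 :: s13 :: [m8, m7, m6, m5, m3, m1, s0, s1, s2, s3, s4, s5, s6, s7, s8, s9, s10, s11, s14, s15, s24, s25, s26, s27, s28, s29])
      17415 := by
    refine all_step ok9 ?_
    rw [e9]
    exact all10
  refine h.perm ?_
  exact (List.perm_middle (l₁ := [m8, m7, m6, m5, m3, m1, s0, s1, s2, s3, s4, s5, s6, s7, s8, s9, s10, s11])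
      (a := s12)
      (l₂ := [s13, s14, s15, s24, s25, s26, s27, s28, s29])).trans
      ((List.perm_middle (l₁ := [m8, m7, m6, m5, m3, m1, s0, s1, s2, s3, s4, s5, s6, s7, s8, s9, s10, s11])
      (a := s13)
      (l₂ := [s14, s15, s24, s25, s26, s27, s28, s29])).cons s12)

theorem all8 : All
    [m7, m6, m5, m3, m1, s0, s1, s2, s3, s4, s5, s6, s7, s8, s9, s10, s11, s12, s13, s14, s15, s24, s25, s26, s27, s28, s29, s30, s31]
    17415 := by
  have h : All
      (s30 :: s31 :: [m7, m6, m5, m3, m1, s0, s1, s2, s3, s4, s5, s6, s7, s8, s9, s10, s11, s12, s13, s14, s15, s24, s25, s26, s27, s28, s29])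
      17415 := by
    refine all_step ok8 ?_
    rw [e8]
    exact all9
  refine h.perm ?_
  exact (List.perm_middle (l₁ := [m7, m6, m5, m3, m1, s0, s1, s2, s3, s4, s5, s6, s7, s8, s9, s10, s11, s12, s13, s14, s15, s24, s25, s26, s27, s28, s29])
      (a := s30)
      (l₂ := [s31])).trans
      ((List.perm_middle (l₁ := [m7, m6, m5, m3, m1, s0, s1, s2, s3, s4, s5, s6, s7, s8, s9, s10, s11, s12, s13, s14, s15, s24, s25, s26, s27, s28, s29])
      (a := s31)
      (l₂ := [])).cons s30)

theorem all7 : All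
    [m6, m5, m3, m1, s0, s1, s2, s3, s4, s5, s6, s7, s8, s9, s10, s11, s12, s13, s14, s15, s18, s19, s24, s25, s26, s27, s28, s29, s30, s31]
    17415 := by
  have h : All
      (s18 :: s19 :: [m6, m5, m3, m1, s0, s1, s2, s3, s4, s5, s6, s7, s8, s9, s10, s11, s12, s13, s14, s15, s24, s25, s26, s27, s28, s29, s30, s31])
      17415 := by
    refine all_step ok7 ?_
    rw [e7]
    exact all8
  refine h.perm ?_
  exact (List.perm_middle (l₁ := [m6, m5, m3, m1, s0, s1, s2, s3, s4, s5, s6, s7, s8, s9, s10, s11, s12, s13, s14, s15])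
      (a := s18)
      (l₂ := [s19, s24, s25, s26, s27, s28, s29, s30, s31])).trans
      ((List.perm_middle (l₁ := [m6, m5, m3, m1, s0, s1, s2, s3, s4, s5, s6, s7, s8, s9, s10, s11, s12, s13, s14, s15])
      (a := s19)
      (l₂ := [s24, s25, s26, s27, s28, s29, s30, s31])).cons s18)

theorem all6 : All
    [m5, m4, m3, m2, m1, s0, s1, s2, s3, s4, s5, s6, s7, s8, s9, s10, s11, s12, s13, s14, s15, s18, s19, s24, s25, s26, s27, s28, s29, s30, s31]
    17415 := by
  have h : All
      (m4 :: m2 :: [m5, m3, m1, s0, s1, s2, s3, s4, s5, s6, s7, s8, s9, s10, s11, s12, s13, s14, s15, s18, s19, s24, s25, s26, s27, s28, s29, s30, s31])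
      17415 := by
    refine all_step ok6 ?_
    rw [e6]
    exact all7
  refine h.perm ?_
  exact (List.perm_middle (l₁ := [m5])
      (a := m4)
      (l₂ := [m3, m2, m1, s0, s1, s2, s3, s4, s5, s6, s7, s8, s9, s10, s11, s12, s13, s14, s15, s18, s19, s24, s25, s26, s27, s28, s29, s30, s31])).trans
      ((List.perm_middle (l₁ := [m5, m3])
      (a := m2)
      (l₂ := [m1, s0, s1, s2, s3, s4, s5, s6, s7, s8, s9, s10, s11, s12, s13, s14, s15, s18, s19, s24, s25, s26, s27, s28, s29, s30, s31])).cons m4)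

theorem all5 : All
    [m4, m3, m2, m1, s0, s1, s2, s3, s4, s5, s6, s7, s8, s9, s10, s11, s12, s13, s14, s15, s16, s17, s18, s19, s24, s25, s26, s27, s28, s29, s30, s31]
    17415 := by
  have h : All
      (s16 :: s17 :: [m4, m3, m2, m1, s0, s1, s2, s3, s4, s5, s6, s7, s8, s9, s10, s11, s12, s13, s14, s15, s18, s19, s24, s25, s26, s27, s28, s29, s30, s31])
      17415 := by
    refine all_step ok5 ?_
    rw [e5]
    exact all6
  refine h.perm ?_
  exact (List.perm_middle (l₁ := [m4, m3, m2, m1, s0, s1, s2, s3, s4, s5, s6, s7, s8, s9, s10, s11, s12, s13, s14, s15])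
      (a := s16)
      (l₂ := [s17, s18, s19, s24, s25, s26, s27, s28, s29, s30, s31])).trans
      ((List.perm_middle (l₁ := [m4, m3, m2, m1, s0, s1, s2, s3, s4, s5, s6, s7, s8, s9, s10, s11, s12, s13, s14, s15])
      (a := s17)
      (l₂ := [s18, s19, s24, s25, s26, s27, s28, s29, s30, s31])).cons s16)

theorem all4 : All
    [m3, m2, m1, s0, s1, s2, s3, s4, s5, s6, s7, s8, s9, s10, s11, s12, s13, s14, s15, s16, s17, s18, s19, s24, s25, s26, s27, s28, s29, s30, s31, s32, s33]
    17415 := by
  have h : All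
      (s32 :: s33 :: [m3, m2, m1, s0, s1, s2, s3, s4, s5, s6, s7, s8, s9, s10, s11, s12, s13, s14, s15, s16, s17, s18, s19, s24, s25, s26, s27, s28, s29, s30, s31])
      17415 := by
    refine all_step ok4 ?_
    rw [e4]
    exact all5
  refine h.perm ?_
  exact (List.perm_middle (l₁ := [m3, m2, m1, s0, s1, s2, s3, s4, s5, s6, s7, s8, s9, s10, s11, s12, s13, s14, s15, s16, s17, s18, s19, s24, s25, s26, s27, s28, s29, s30, s31])
      (a := s32)
      (l₂ := [s33])).trans
      ((List.perm_middle (l₁ := [m3, m2, m1, s0, s1, s2, s3, s4, s5, s6, s7, s8, s9, s10, s11, s12, s13, s14, s15, s16, s17, s18, s19, s24, s25, s26, s27, s28, s29, s30, s31])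
      (a := s33)
      (l₂ := [])).cons s32)

theorem all3 : All
    [m2, m1, s0, s1, s2, s3, s4, s5, s6, s7, s8, s9, s10, s11, s12, s13, s14, s15, s16, s17, s18, s19, s20, s21, s24, s25, s26, s27, s28, s29, s30, s31, s32, s33]
    17415 := by
  have h : All
      (s20 :: s21 :: [m2, m1, s0, s1, s2, s3, s4, s5, s6, s7, s8, s9, s10, s11, s12, s13, s14, s15, s16, s17, s18, s19, s24, s25, s26, s27, s28, s29, s30, s31, s32, s33])
      17415 := by
    refine all_step ok3 ?_
    rw [e3]
    exact all4
  refine h.perm ?_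
  exact (List.perm_middle (l₁ := [m2, m1, s0, s1, s2, s3, s4, s5, s6, s7, s8, s9, s10, s11, s12, s13, s14, s15, s16, s17, s18, s19])
      (a := s20)
      (l₂ := [s21, s24, s25, s26, s27, s28, s29, s30, s31, s32, s33])).trans
      ((List.perm_middle (l₁ := [m2, m1, s0, s1, s2, s3, s4, s5, s6, s7, s8, s9, s10, s11, s12, s13, s14, s15, s16, s17, s18, s19])
      (a := s21)
      (l₂ := [s24, s25, s26, s27, s28, s29, s30, s31, s32, s33])).cons s20)

theorem all2 : All
    [m1, m0, s0, s1, s2, s3, s4, s5, s6, s7, s8, s9, s10, s11, s12, s13, s14, s15, s16, s17, s18, s19, s20, s21, s24, s25, s26, s27, s28, s29, s30, s31, s32, s33, s34]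
    17415 := by
  have h : All
      (s34 :: m0 :: [m1, s0, s1, s2, s3, s4, s5, s6, s7, s8, s9, s10, s11, s12, s13, s14, s15, s16, s17, s18, s19, s20, s21, s24, s25, s26, s27, s28, s29, s30, s31, s32, s33])
      17415 := by
    refine all_step ok2 ?_
    rw [e2]
    exact all3
  refine h.perm ?_
  exact (List.perm_middle (l₁ := [m1, m0, s0, s1, s2, s3, s4, s5, s6, s7, s8, s9, s10, s11, s12, s13, s14, s15, s16, s17, s18, s19, s20, s21, s24, s25, s26, s27, s28, s29, s30, s31, s32, s33])
      (a := s34)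
      (l₂ := [])).trans
      ((List.perm_middle (l₁ := [m1])
      (a := m0)
      (l₂ := [s0, s1, s2, s3, s4, s5, s6, s7, s8, s9, s10, s11, s12, s13, s14, s15, s16, s17, s18, s19, s20, s21, s24, s25, s26, s27, s28, s29, s30, s31, s32, s33])).cons s34)

theorem all1 : All
    [m0, s0, s1, s2, s3, s4, s5, s6, s7, s8, s9, s10, s11, s12, s13, s14, s15, s16, s17, s18, s19, s20, s21, s22, s23, s24, s25, s26, s27, s28, s29, s30, s31, s32, s33, s34]
    17415 := by
  have h : All
      (s22 :: s23 :: [m0, s0, s1, s2, s3, s4, s5, s6, s7, s8, s9, s10, s11, s12, s13, s14, s15, s16, s17, s18, s19, s20, s21, s24, s25, s26, s27, s28, s29, s30, s31, s32, s33, s34])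
      17415 := by
    refine all_step ok1 ?_
    rw [e1]
    exact all2
  refine h.perm ?_
  exact (List.perm_middle (l₁ := [m0, s0, s1, s2, s3, s4, s5, s6, s7, s8, s9, s10, s11, s12, s13, s14, s15, s16, s17, s18, s19, s20, s21])
      (a := s22)
      (l₂ := [s23, s24, s25, s26, s27, s28, s29, s30, s31, s32, s33, s34])).trans
      ((List.perm_middle (l₁ := [m0, s0, s1, s2, s3, s4, s5, s6, s7, s8, s9, s10, s11, s12, s13, s14, s15, s16, s17, s18, s19, s20, s21])
      (a := s23)
      (l₂ := [s24, s25, s26, s27, s28, s29, s30, s31, s32, s33, s34])).cons s22)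

theorem all0 : All
    [s0, s1, s2, s3, s4, s5, s6, s7, s8, s9, s10, s11, s12, s13, s14, s15, s16, s17, s18, s19, s20, s21, s22, s23, s24, s25, s26, s27, s28, s29, s30, s31, s32, s33, s34, s35, s36]
    17415 := by
  have h : All
      (s35 :: s36 :: [s0, s1, s2, s3, s4, s5, s6, s7, s8, s9, s10, s11, s12, s13, s14, s15, s16, s17, s18, s19, s20, s21, s22, s23, s24, s25, s26, s27, s28, s29, s30, s31, s32, s33, s34])
      17415 := by
    refine all_step ok0 ?_
    rw [e0]
    exact all1
  refine h.perm ?_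
  exact (List.perm_middle (l₁ := [s0, s1, s2, s3, s4, s5, s6, s7, s8, s9, s10, s11, s12, s13, s14, s15, s16, s17, s18, s19, s20, s21, s22, s23, s24, s25, s26, s27, s28, s29, s30, s31, s32, s33, s34])
      (a := s35)
      (l₂ := [s36])).trans
      ((List.perm_middle (l₁ := [s0, s1, s2, s3, s4, s5, s6, s7, s8, s9, s10, s11, s12, s13, s14, s15, s16, s17, s18, s19, s20, s21, s22, s23, s24, s25, s26, s27, s28, s29, s30, s31, s32, s33, s34])
      (a := s36)
      (l₂ := [])).cons s35)

theorem outs : (∃ t, Greedy.Output (fam.map str) t) ∧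
    ∀ t, Greedy.Output (fam.map str) t → t.length = 17415 :=
  outputs (by decide) reduced all0

/-- **Every output of the greedy algorithm is much longer than twice a shortest superstring.** -/
theorem main : ∃ S : List (List ℕ), Greedy.Reduced S S ∧ (∃ t, Greedy.Output S t) ∧
    ∀ t, Greedy.Output S t → 2 * opt S < t.length ∧ 2107 * opt S < 1000 * t.length := by
  refine ⟨fam.map str, reduced, outs.1, fun t ht => ?_⟩
  have h1 := opt_le
  have h2 := outs.2 t ht
  constructor <;> omega

end Vale.Agent.P333.H476.K6
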