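import Vale.Agent.P333.H476.K6.Str

set_option autoImplicit false

/-!
P333: checks of steps of the greedy algorithm.
-/

namespace Vale.Agent.P333.H476.K6

open Vale.Agent.P333.H476.Nm

theorem ok13 : stepOk s8 s9 796
    [m12, m11, m10, m9, m7, m5, m3, m1, s0, s1, s2, s3, s4, s5, s6, s7, s10, s11, s24, s25, s26, s27] = true := by
  decide +kernel

theorem e13 : mrg s8 s9 796 = m13 := by
  decide +kernel

theorem ok23 : stepOk s2 s3 736
    [m22, m21, m19, m17, m15, m13, m11, m9, m7, m5, m3, m1] = true := by
  decide +kernel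

theorem e23 : mrg s2 s3 736 = m23 := by
  decide +kernel

theorem ok24 : stepOk m7 m5 201
    [m23, m22, m21, m19, m17, m15, m13, m11, m9, m3, m1] = true := by
  decide +kernel

theorem e24 : mrg m7 m5 201 = m24 := by
  decide +kernel

end Vale.Agent.P333.H476.K6
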